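import Vale.Agent.P183.All

/-!
# P183: every lattice with at most seven elements is representable
-/

namespace Vale.Agent.Results.P183.AtMostSeven

open Vale.Agent.P183

/-- Every nonempty lattice with at most seven elements is isomorphic to the lattice of all
congruences of a finite algebra. -/
theorem result (L : Type) [Lattice L] [Fintype L] [Nonempty L] (h : Fintype.card L ≤ 7) :
    Representable L :=
  representable_le_seven L h

end Vale.Agent.Results.P183.AtMostSeven
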