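import Vale.Agent.P183.All

/-!
# P183: every lattice with at most seven elements is representable, stated with Mathlib notions only
-/

namespace Vale.Agent.Results.P183.AtMostSevenPlain

open Vale.Agent.P183

/-- Every nonempty lattice with at most seven elements is isomorphic, as an ordered set, to the set
of all congruences (ordered by inclusion) of a finite nonempty set `A` with a finite list `ops` of
operations of finite arity. -/
theorem result (L : Type) [Lattice L] [Fintype L] [Nonempty L] (h : Fintype.card L ≤ 7) :
    ∃ (A : Type) (_ : Finite A) (_ : Nonempty A) (ops : List (Sigma fun n : ℕ => (Fin n → A) → A)),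
      Nonempty (L ≃o {r : Setoid A // ∀ o ∈ ops, ∀ a b : Fin o.1 → A,
        (∀ i, r (a i) (b i)) → r (o.2 a) (o.2 b)}) := by
  obtain ⟨A, ⟨e⟩⟩ := representable_le_seven L h
  exact ⟨A.carrier, A.finite, A.nonempty, A.ops, ⟨e⟩⟩

end Vale.Agent.Results.P183.AtMostSevenPlain
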