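import Vale.Agent.P183.Inv.Final

/-!
# P183: the seven element lattice made of the product of a two and a three element chain and one
more element that is both an atom and a coatom is representable, and it is an interval in the
subgroup lattice of a finite group
-/

namespace Vale.Agent.Results.P183.DeMeoSeven

open Vale.Agent.P183

/-- The seven element lattice `N7` (`bot < j1 < m1 < top`, `bot < j2 < m1`, `j2 < m2 < top`,
`bot < k < top`) is isomorphic to the lattice of all congruences of a finite algebra, and to the
lattice of all subgroups of a finite group `G` that contain a fixed subgroup `H`. -/
theorem result : Representable N7 ∧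
    ∃ (G : Type) (_ : Group G) (_ : Finite G) (H : Subgroup G),
      Nonempty (N7 ≃o {K : Subgroup G // H ≤ K}) :=
  ⟨Inv.SL2.representable_N7, Inv.SL2, inferInstance, inferInstance, Inv.SL2.Mon 3,
    ⟨Inv.SL2.intervalIso⟩⟩

end Vale.Agent.Results.P183.DeMeoSeven
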