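import Vale.Agent.P183.Twelve

/-!
# P183: the seven element lattice made of two pentagons glued along a three element chain is
representable
-/

namespace Vale.Agent.Results.P183.ExceptionalSeven

open Vale.Agent.P183

/-- The seven element lattice `L7` (`bot < x < y < w < top`, `bot < z < w`, `x < v < top`) is
isomorphic to the lattice of all congruences of a finite algebra. -/
theorem result : Representable L7 :=
  representable_L7

end Vale.Agent.Results.P183.ExceptionalSeven
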